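import Vale.Agent.Lib.P157.TwoStageMain
import Vale.Agent.Lib.P157.FractionalMoment

namespace Vale.Agent.Results.P157.IsingBoundsOmnibus

open MeasureTheory ProbabilityTheory Vale.Agent.Lib.P157

/-- Bounds for the expected pressure `E p_N(f)` of the Gaussian perceptron on the Ising cube
`{-1,1}^N` with `M` independent standard Gaussian patterns, in one statement (`G` is a standard
Gaussian variable).

First part (two-stage window, every Borel `f` with values in `[a, b]`): split `N = N₁ + N₂`,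
put `r₁ = sqrt (N₁ / N)`, `r₂ = sqrt (N₂ / N)` and let `V = tiltVar f r₁ r₂` be the second
moment, in a standard Gaussian `u`, of `E_t [t f(r₁ u + r₂ t)]`.  Then
`(M/N) E f(G) + 2 sqrt (2/π) r₂ sqrt (M/N) V / (b - a) - (3/2) (b - a) r₂² - 2 (b - a) / N - log 2
  ≤ E p_N(f) ≤ (M/N) E f(G) + (b - a) sqrt ((M/N) (log 2) / 2)`;
moreover `V ≥ r₂² (E [G f(G)])²`, `V ≥ r₁² r₂² (E [(G² - 1) f(G)])²`, and `V = 0` only if `f` is
almost everywhere equal to the constant `E f(G)`.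

Second part (one-stage window, every Borel `f` with values in `[a, b]`):
`(M/N) E f(G) + sqrt (2 M / (π N)) |E (G f(G))| - 2 (b - a) - log 2 ≤ E p_N(f)
  ≤ (M/N) E f(G) + (b - a) sqrt ((M/N) (log 2) / 2)`.

Third part (fractional moments, every bounded Borel `f` and every `lam ∈ (0, 1]`):
`E p_N(f) ≤ (1/lam - 1) log 2 + (M/N) (1/lam) log E exp (lam f(G))`. -/
theorem result :
    (∀ (M N₁ N₂ N : ℕ), 0 < N₁ → 0 < N₂ → N = N₁ + N₂ →
      ∀ (f : ℝ → ℝ), Measurable f → ∀ (a b : ℝ), (∀ t, a ≤ f t ∧ f t ≤ b) →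
      ∀ (r₁ r₂ : ℝ), r₁ = Real.sqrt ((N₁ : ℝ) / N) → r₂ = Real.sqrt ((N₂ : ℝ) / N) →
      (((M : ℝ) / N) * ∫ t, f t ∂(gaussianReal 0 1)
          + 2 * Real.sqrt (2 / Real.pi) * r₂ * Real.sqrt ((M : ℝ) / N)
            * (tiltVar f r₁ r₂ / (b - a))
          - 3 / 2 * (b - a) * r₂ ^ 2 - 2 * (b - a) / N - Real.log 2
        ≤ ∫ g, isingPressure M N f g ∂(patternLaw M N)) ∧
      (∫ g, isingPressure M N f g ∂(patternLaw M N) ≤
        ((M : ℝ) / N) * ∫ t, f t ∂(gaussianReal 0 1) +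
          (b - a) * Real.sqrt (((M : ℝ) / N) * Real.log 2 / 2)) ∧
      (r₂ ^ 2 * (∫ t, t * f t ∂(gaussianReal 0 1)) ^ 2 ≤ tiltVar f r₁ r₂) ∧
      (r₁ ^ 2 * r₂ ^ 2 * (∫ t, (t ^ 2 - 1) * f t ∂(gaussianReal 0 1)) ^ 2 ≤ tiltVar f r₁ r₂) ∧
      (tiltVar f r₁ r₂ = 0 → ∀ᵐ t ∂(gaussianReal 0 1), f t = ∫ s, f s ∂(gaussianReal 0 1))) ∧
    (∀ (M N : ℕ), 0 < N → ∀ (f : ℝ → ℝ), Measurable f → ∀ (a b : ℝ),
      (∀ t, a ≤ f t ∧ f t ≤ b) →
      ((M : ℝ) / N) * ∫ t, f t ∂(gaussianReal 0 1) +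
            Real.sqrt (2 * M / (Real.pi * N)) * |∫ t, t * f t ∂(gaussianReal 0 1)|
            - 2 * (b - a) - Real.log 2 ≤
          ∫ g, isingPressure M N f g ∂(patternLaw M N) ∧
        ∫ g, isingPressure M N f g ∂(patternLaw M N) ≤
          ((M : ℝ) / N) * ∫ t, f t ∂(gaussianReal 0 1) +
            (b - a) * Real.sqrt (((M : ℝ) / N) * Real.log 2 / 2)) ∧
    (∀ (M N : ℕ), 0 < N → ∀ (f : ℝ → ℝ), Measurable f → (∃ C, ∀ t, |f t| ≤ C) →
      ∀ (lam : ℝ), 0 < lam → lam ≤ 1 →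
      ∫ g, isingPressure M N f g ∂(patternLaw M N) ≤
        (1 / lam - 1) * Real.log 2 +
          ((M : ℝ) / N) *
            ((1 / lam) * Real.log (∫ t, Real.exp (lam * f t) ∂(gaussianReal 0 1)))) :=
  ⟨fun M N₁ N₂ N hN₁ hN₂ hN f hf a b hab r₁ r₂ hr₁ hr₂ =>
      two_stage_window M N₁ N₂ N hN₁ hN₂ hN f hf a b hab r₁ r₂ hr₁ hr₂,
    fun M N hN f hf a b hab =>
      ⟨sqrt_lower_bound M N hN f hf a b hab, sqrt_upper_bound M N hN f hf a b hab⟩,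
    fun M N hN f hf hb lam h0 h1 => fractional_moment_bound M N hN f hf hb lam h0 h1⟩

end Vale.Agent.Results.P157.IsingBoundsOmnibus
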