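import Vale.Agent.Lib.P157.FractionalMoment

namespace Vale.Agent.Results.P157.IsingFractionalMoment

open MeasureTheory ProbabilityTheory Vale.Agent.Lib.P157

/-- Fractional-moment upper bound for the expected pressure of the Gaussian perceptron on the
Ising cube: for every number `M` of patterns, every dimension `N ≥ 1`, every bounded Borel
log-potential `f` and every `lam ∈ (0, 1]`,
`E p_N(f) ≤ (1/lam - 1) log 2 + (M/N) (1/lam) log E exp (lam f(G))`, `G` standard Gaussian.
At `lam = 1` this is the annealed (Jensen) bound. -/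
theorem result (M N : ℕ) (hN : 0 < N) (f : ℝ → ℝ) (hf : Measurable f)
    (hb : ∃ C, ∀ t, |f t| ≤ C) (lam : ℝ) (h0 : 0 < lam) (h1 : lam ≤ 1) :
    ∫ g, isingPressure M N f g ∂(patternLaw M N) ≤
      (1 / lam - 1) * Real.log 2 +
        ((M : ℝ) / N) * ((1 / lam) * Real.log (∫ t, Real.exp (lam * f t) ∂(gaussianReal 0 1))) :=
  fractional_moment_bound M N hN f hf hb lam h0 h1

end Vale.Agent.Results.P157.IsingFractionalMoment
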