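import Vale.Agent.Lib.P157.TwoStageMain

namespace Vale.Agent.Results.P157.IsingSqrtAllPotentials

open MeasureTheory ProbabilityTheory Vale.Agent.Lib.P157

/-- Order `sqrt (M / N)` of the expected pressure of the Gaussian perceptron on the Ising cube,
for every bounded Borel potential. Split the dimension as `N = N₁ + N₂`, put
`r₁ = sqrt (N₁ / N)`, `r₂ = sqrt (N₂ / N)` and let `V = tiltVar f r₁ r₂` be the second moment,
in a standard Gaussian `u`, of `E_t [t f(r₁ u + r₂ t)]`. Then for every number `M` of patterns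
and every Borel `f` with values in `[a, b]`:
`(M/N) E f(G) + 2 sqrt (2/π) r₂ sqrt (M/N) V / (b - a) - (3/2) (b - a) r₂² - 2 (b - a) / N - log 2
  ≤ E p_N(f) ≤ (M/N) E f(G) + (b - a) sqrt ((M/N) (log 2) / 2)`;
moreover `V ≥ r₂² (E [G f(G)])²`, `V ≥ r₁² r₂² (E [(G² - 1) f(G)])²`, and `V = 0` only if `f` is
almost everywhere equal to the constant `E f(G)`. -/
theorem result (M N₁ N₂ N : ℕ) (hN₁ : 0 < N₁) (hN₂ : 0 < N₂) (hN : N = N₁ + N₂)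
    (f : ℝ → ℝ) (hf : Measurable f) (a b : ℝ) (hab : ∀ t, a ≤ f t ∧ f t ≤ b)
    (r₁ r₂ : ℝ) (hr₁ : r₁ = Real.sqrt ((N₁ : ℝ) / N)) (hr₂ : r₂ = Real.sqrt ((N₂ : ℝ) / N)) :
    (((M : ℝ) / N) * ∫ t, f t ∂(gaussianReal 0 1)
        + 2 * Real.sqrt (2 / Real.pi) * r₂ * Real.sqrt ((M : ℝ) / N) * (tiltVar f r₁ r₂ / (b - a))
        - 3 / 2 * (b - a) * r₂ ^ 2 - 2 * (b - a) / N - Real.log 2
      ≤ ∫ g, isingPressure M N f g ∂(patternLaw M N)) ∧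
    (∫ g, isingPressure M N f g ∂(patternLaw M N) ≤
      ((M : ℝ) / N) * ∫ t, f t ∂(gaussianReal 0 1) +
        (b - a) * Real.sqrt (((M : ℝ) / N) * Real.log 2 / 2)) ∧
    (r₂ ^ 2 * (∫ t, t * f t ∂(gaussianReal 0 1)) ^ 2 ≤ tiltVar f r₁ r₂) ∧
    (r₁ ^ 2 * r₂ ^ 2 * (∫ t, (t ^ 2 - 1) * f t ∂(gaussianReal 0 1)) ^ 2 ≤ tiltVar f r₁ r₂) ∧
    (tiltVar f r₁ r₂ = 0 → ∀ᵐ t ∂(gaussianReal 0 1), f t = ∫ s, f s ∂(gaussianReal 0 1)) :=
  two_stage_window M N₁ N₂ N hN₁ hN₂ hN f hf a b hab r₁ r₂ hr₁ hr₂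

end Vale.Agent.Results.P157.IsingSqrtAllPotentials
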