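import Vale.Agent.Lib.P157.SqrtLower

namespace Vale.Agent.Results.P157.IsingSqrtTwoSided

open MeasureTheory ProbabilityTheory Vale.Agent.Lib.P157

/-- Two-sided estimate of order `sqrt (M / N)` for the expected pressure of the Gaussian
perceptron on the Ising cube: for every number `M` of patterns, every dimension `N ≥ 1` and
every Borel `f` with values in `[a, b]`, writing `G` for a standard Gaussian variable,
`(M/N) E f(G) + sqrt (2 M / (π N)) |E (G f(G))| - 2 (b - a) - log 2 ≤ E p_N(f)` and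
`E p_N(f) ≤ (M/N) E f(G) + (b - a) sqrt ((M/N) (log 2) / 2)`. -/
theorem result (M N : ℕ) (hN : 0 < N) (f : ℝ → ℝ) (hf : Measurable f) (a b : ℝ)
    (hab : ∀ t, a ≤ f t ∧ f t ≤ b) :
    ((M : ℝ) / N) * ∫ t, f t ∂(gaussianReal 0 1) +
          Real.sqrt (2 * M / (Real.pi * N)) * |∫ t, t * f t ∂(gaussianReal 0 1)|
          - 2 * (b - a) - Real.log 2 ≤
        ∫ g, isingPressure M N f g ∂(patternLaw M N) ∧
      ∫ g, isingPressure M N f g ∂(patternLaw M N) ≤
        ((M : ℝ) / N) * ∫ t, f t ∂(gaussianReal 0 1) +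
          (b - a) * Real.sqrt (((M : ℝ) / N) * Real.log 2 / 2) :=
  ⟨sqrt_lower_bound M N hN f hf a b hab, sqrt_upper_bound M N hN f hf a b hab⟩

end Vale.Agent.Results.P157.IsingSqrtTwoSided
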